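import Mathlib
import Vale.Agent.P068.Defs
import Vale.Agent.P068.Main

open Set Matroid Vale.Agent.P068

theorem Vale.Agent.Results.P068.CHDisproof.result
    (h : Cardinal.continuum.{0} = Cardinal.aleph 1) :
    ¬ IntersectionConjecture ∧ ¬ PackingCoveringConjecture :=
  main_ch h
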