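import Mathlib
import Vale.Agent.P068.Defs
import Vale.Agent.P068.Main

open Set Matroid Vale.Agent.P068

theorem Vale.Agent.Results.P068.ReapingDisproof.result :
    (SmallSplit →
      ¬ IntersectionConjecture ∧ ¬ PackingCoveringConjecture ∧
        ∃ M N : Matroid (ℤ × ℕ), M.E = univ ∧ N.E = univ ∧ IsCountableSumOfUniform M ∧
          IsCountableSumOfUniform N ∧ ¬ SatisfiesIntersection M N ∧
          ¬ HasPackingCovering univ (fun b : Bool => if b then M else N✶)) ∧
    (Cardinal.continuum.{0} = Cardinal.aleph 1 → SmallSplit) :=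
  ⟨main, smallSplit_of_ch⟩
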